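import Vale.Agent.P004G.H293.R3
import Vale.Agent.P004.R2.H123.Iface

/-!
# P004: the big block, truncated by size
-/

open Finset Real

namespace P004G.H293.X663

variable [Crv]

open P004.H293

open P004.H628 (yk_pos yk_anti)
open P004G.H628 (mem_Ik Ik_disj)

/-- the block truncated by size -/
noncomputable def MB (I : Finset ℕ) (T : ℝ) (z₀ : ℝ) (ω : ℕ → ℝ) : ℝ :=
  ∑ a ∈ (∏ p ∈ I, p ^ 2).divisors,
    (if (a : ℝ) ≤ T then muc a * (a : ℝ) ^ (-1 - z₀) else 0) * ffx ω a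

/-- the truncation error -/
noncomputable def RB (I : Finset ℕ) (T : ℝ) (z₀ : ℝ) (ω : ℕ → ℝ) : ℝ :=
  ∑ a ∈ (∏ p ∈ I, p ^ 2).divisors,
    (if (a : ℝ) ≤ T then 0 else muc a * (a : ℝ) ^ (-1 - z₀)) * ffx ω a

lemma Mbx_eq (L K : ℝ) (ω : ℕ → ℝ) :
    Mbx L K (P004.H628.ffx ω) = MB (Ibx L K) (Real.exp (L / 4000)) (K / L) ω := by
  classical
  unfold Mbx MB Abx
  rw [Finset.sum_filter]
  refine Finset.sum_congr rfl fun a _ => ?_
  split_ifs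
  · rfl
  · simp

lemma MB_add_RB {I : Finset ℕ} (hI : ∀ p ∈ I, p.Prime) (T : ℝ) (z₀ : ℝ) (ω : ℕ → ℝ) :
    MB I T z₀ ω + RB I T z₀ ω = ∏ p ∈ I, Np p z₀ (ω p) := by
  rw [← full_block I hI, MB, RB, ← Finset.sum_add_distrib]
  refine Finset.sum_congr rfl fun a _ => ?_
  split_ifs <;> ring

lemma MB_depOn {I : Finset ℕ} (hI : ∀ p ∈ I, p.Prime) (T : ℝ) (z₀ : ℝ) :
    DepOn I (fun ω => MB I T z₀ ω) :=
  depOn_sum_ffx (fun a ha => (mem_div hI ha).2)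
    (fun a => if (a : ℝ) ≤ T then muc a * (a : ℝ) ^ (-1 - z₀) else 0)

lemma mem_Ibx {L K : ℝ} {p : ℕ} : p ∈ Ibx L K ↔ (p : ℝ) ≤ yk L 0 ∧ p.Prime ∧ ¬ p ∣ bd ∧
    yk (L / K) 0 < p := by
  unfold Ibx
  rw [Finset.mem_filter, Finset.mem_range, Nat.lt_succ_iff, Nat.le_floor_iff (yk_pos L 0).le]

lemma Ibx_prime {L K : ℝ} {p : ℕ} (hp : p ∈ Ibx L K) : p.Prime := (mem_Ibx.1 hp).2.1

lemma Ibx_three {L K : ℝ} {p : ℕ} (hp : p ∈ Ibx L K) : 3 ≤ p :=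
  three_le (mem_Ibx.1 hp).2.1 (mem_Ibx.1 hp).2.2.1

/-- the coefficients are bounded by the majorant -/
lemma abs_cc_le_one (hc : StCoef) {I : Finset ℕ} (hI : ∀ p ∈ I, p.Prime) {z₀ : ℝ} (hz₀ : 0 ≤ z₀)
    {a : ℕ} (ha0 : a ≠ 0) (haI : a.primeFactors ⊆ I) :
    |muc a * (a : ℝ) ^ (-1 - z₀)| ≤ ∏ p ∈ a.primeFactors, hh p (a.factorization p) := by
  have hnn : 0 ≤ ∏ p ∈ a.primeFactors, hh p (a.factorization p) :=
    Finset.prod_nonneg fun _ _ => hh_nonneg _ _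
  refine (abs_cc_le hc I (η := 1) (fun p hp => ?_) ha0 haI).trans ?_
  · exact Real.rpow_le_one_of_one_le_of_nonpos (by exact_mod_cast (hI p hp).one_lt.le)
      (by linarith)
  · have : (1 / 3 : ℝ) ^ ArithmeticFunction.cardFactors a ≤ 1 :=
      pow_le_one₀ (by norm_num) (by norm_num)
    nlinarith

lemma abs_cc_le_big (hc : StCoef) {I : Finset ℕ} (hI : ∀ p ∈ I, p.Prime) {z₀ T : ℝ}
    (hz₀ : 0 ≤ z₀) (hT : 0 < T) {a : ℕ} (ha0 : a ≠ 0) (haI : a.primeFactors ⊆ I)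
    (haT : ¬ (a : ℝ) ≤ T) :
    |muc a * (a : ℝ) ^ (-1 - z₀)| ≤
      T ^ (-z₀) * ∏ p ∈ a.primeFactors, hh p (a.factorization p) := by
  have ha : (0 : ℝ) < a := by exact_mod_cast Nat.pos_of_ne_zero ha0
  have h1 := abs_cc_le_one hc hI (le_refl (0 : ℝ)) ha0 haI
  have h2 : muc a * (a : ℝ) ^ (-1 - z₀) = (a : ℝ) ^ (-z₀) * (muc a * (a : ℝ) ^ (-1 - (0 : ℝ))) := by
    have : (a : ℝ) ^ (-1 - z₀) = (a : ℝ) ^ (-z₀) * (a : ℝ) ^ (-1 - (0 : ℝ)) := by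
      rw [← Real.rpow_add ha]; congr 1; ring
    rw [this]; ring
  have h3 : (a : ℝ) ^ (-z₀) ≤ T ^ (-z₀) :=
    Real.rpow_le_rpow_of_nonpos hT (not_le.1 haT).le (by linarith)
  have h4 : 0 < (a : ℝ) ^ (-z₀) := Real.rpow_pos_of_pos ha _
  rw [h2, abs_mul, abs_of_pos h4]
  exact mul_le_mul h3 h1 (abs_nonneg _) (h4.le.trans h3)

section
variable {I : Finset ℕ} (hI : ∀ p ∈ I, p.Prime) (hI3 : ∀ p ∈ I, 3 ≤ p)
include hI hI3

lemma maj4_le (r : ℝ) (hr : 0 ≤ r) :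
    EE I (fun ω => (∑ a ∈ (∏ p ∈ I, p ^ 2).divisors,
        (r * ∏ p ∈ a.primeFactors, hh p (a.factorization p)) * ffx ω a) ^ 4) ≤
      r ^ 4 * ∏ p ∈ I, (1 + 11000 * (1 / (p : ℝ))) := by
  have hS : ∀ p ∈ I, 1 ≤ p := fun p hp => (hI p hp).one_lt.le
  have h3 : ∀ ω, (∑ a ∈ (∏ p ∈ I, p ^ 2).divisors,
        (r * ∏ p ∈ a.primeFactors, hh p (a.factorization p)) * ffx ω a) ^ 4 =
      r ^ 4 * ∏ p ∈ I, (1 + 3 * (p : ℝ) ^ (-(1 / 2) : ℝ) * ω p) ^ 8 := by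
    intro ω
    simp only [mul_assoc]
    rw [← Finset.mul_sum, maj_block I hI, mul_pow, ← Finset.prod_pow]
    congr 1
    refine Finset.prod_congr rfl fun p _ => ?_
    ring
  simp only [h3]
  rw [EE_mul_left, EE_prod I (fun p x => (1 + 3 * (p : ℝ) ^ (-(1 / 2) : ℝ) * x) ^ 8)]
  refine mul_le_mul_of_nonneg_left ?_ (by positivity)
  refine Finset.prod_le_prod (fun p hp => ?_) fun p hp => E1_maj8 (hI3 p hp)
  have := E1_mono (hS p hp) (G := fun _ => 0)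
    (H := fun x => (1 + 3 * (p : ℝ) ^ (-(1 / 2) : ℝ) * x) ^ 8) (fun x _ => by positivity)
  rwa [E1_const] at this

theorem EE_MB4 (hc : StCoef) (T : ℝ) {z₀ : ℝ} (hz₀ : 0 ≤ z₀) :
    EE I (fun ω => MB I T z₀ ω ^ 4) ≤ ∏ p ∈ I, (1 + 11000 * (1 / (p : ℝ))) := by
  have hS : ∀ p ∈ I, 1 ≤ p := fun p hp => (hI p hp).one_lt.le
  have h1 : EE I (fun ω => MB I T z₀ ω ^ 4) ≤
      EE I (fun ω => (∑ a ∈ (∏ p ∈ I, p ^ 2).divisors,
        (1 * ∏ p ∈ a.primeFactors, hh p (a.factorization p)) * ffx ω a) ^ 4) := by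
    simp only [MB]
    refine Dom.four hS _ _ _ (fun a ha => (mem_div hI ha).1) fun a ha => ?_
    obtain ⟨ha0, haI⟩ := mem_div hI ha
    have hnn : 0 ≤ ∏ p ∈ a.primeFactors, hh p (a.factorization p) :=
      Finset.prod_nonneg fun _ _ => hh_nonneg _ _
    rw [one_mul]
    split_ifs with h
    · exact abs_cc_le_one hc hI hz₀ ha0 haI
    · simpa using hnn
  have h2 := maj4_le hI hI3 1 zero_le_one
  rw [one_pow, one_mul] at h2
  exact h1.trans h2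

theorem EE_RB4 (hc : StCoef) {T z₀ : ℝ} (hT : 0 < T) (hz₀ : 0 ≤ z₀) :
    EE I (fun ω => RB I T z₀ ω ^ 4) ≤
      (T ^ (-z₀)) ^ 4 * ∏ p ∈ I, (1 + 11000 * (1 / (p : ℝ))) := by
  have hS : ∀ p ∈ I, 1 ≤ p := fun p hp => (hI p hp).one_lt.le
  have hr : 0 < T ^ (-z₀) := Real.rpow_pos_of_pos hT _
  have h1 : EE I (fun ω => RB I T z₀ ω ^ 4) ≤
      EE I (fun ω => (∑ a ∈ (∏ p ∈ I, p ^ 2).divisors,
        (T ^ (-z₀) * ∏ p ∈ a.primeFactors, hh p (a.factorization p)) * ffx ω a) ^ 4) := by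
    simp only [RB]
    refine Dom.four hS _ _ _ (fun a ha => (mem_div hI ha).1) fun a ha => ?_
    obtain ⟨ha0, haI⟩ := mem_div hI ha
    have hnn : 0 ≤ ∏ p ∈ a.primeFactors, hh p (a.factorization p) :=
      Finset.prod_nonneg fun _ _ => hh_nonneg _ _
    split_ifs with h
    · rw [abs_zero]; positivity
    · exact abs_cc_le_big hc hI hz₀ hT ha0 haI h
  exact h1.trans (maj4_le hI hI3 _ hr.le)

/-- the big block -/
theorem EE_MB2 (hc : StCoef) (T : ℝ) {z₀ : ℝ} (hz₀ : 0 ≤ z₀) :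
    EE I (fun ω => MB I T z₀ ω ^ 2) ≤ PP I := by
  have hS : ∀ p ∈ I, 1 ≤ p := fun p hp => (hI p hp).one_lt.le
  have h1 : EE I (fun ω => MB I T z₀ ω ^ 2) ≤
      EE I (fun ω => 1 / 2 * MB I T z₀ ω ^ 4 + 1 / 2) := by
    refine EE_mono hS fun ω _ => ?_
    nlinarith [sq_nonneg (MB I T z₀ ω ^ 2 - 1)]
  refine h1.trans ?_
  rw [EE_add, EE_mul_left, EE_const]
  have h2 := EE_MB4 hI hI3 hc T hz₀
  have h3 := prod_le_PP I (c := 11000) (by norm_num) (by norm_num)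
  have h4 := one_le_PP I
  linarith

/-- the big block times the Euler product -/
theorem EE_MBL (hc : StCoef) (T : ℝ) {z₀ : ℝ} (hz₀ : 0 ≤ z₀) {z : ℂ} (hz : 0 ≤ z.re) :
    EE I (fun ω => MB I T z₀ ω ^ 2 * ∏ p ∈ I, ‖Lp p (1 + z) (ω p)‖ ^ 2) ≤ PP I := by
  have hS : ∀ p ∈ I, 1 ≤ p := fun p hp => (hI p hp).one_lt.le
  have h1 : EE I (fun ω => MB I T z₀ ω ^ 2 * ∏ p ∈ I, ‖Lp p (1 + z) (ω p)‖ ^ 2) ≤
      EE I (fun ω => 1 / 2 * MB I T z₀ ω ^ 4 + 1 / 2 * ∏ p ∈ I, ‖Lp p (1 + z) (ω p)‖ ^ 4) := by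
    refine EE_mono hS fun ω _ => ?_
    have e : ∏ p ∈ I, ‖Lp p (1 + z) (ω p)‖ ^ 4 = (∏ p ∈ I, ‖Lp p (1 + z) (ω p)‖ ^ 2) ^ 2 := by
      rw [← Finset.prod_pow]
      refine Finset.prod_congr rfl fun p _ => ?_
      ring
    rw [e]
    nlinarith [sq_nonneg (MB I T z₀ ω ^ 2 - ∏ p ∈ I, ‖Lp p (1 + z) (ω p)‖ ^ 2)]
  refine h1.trans ?_
  rw [EE_add, EE_mul_left, EE_mul_left]
  have h2 := EE_MB4 hI hI3 hc T hz₀
  have h3 := prod_le_PP I (c := 11000) (by norm_num) (by norm_num)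
  have h4 := EE_L4 hI hI3 hc hz
  linarith

/-- the truncation error times the Euler product -/
theorem EE_RBL (hc : StCoef) {T z₀ : ℝ} (hT : 0 < T) (hz₀ : 0 ≤ z₀) {z : ℂ} (hz : 0 ≤ z.re) :
    EE I (fun ω => RB I T z₀ ω ^ 2 * ∏ p ∈ I, ‖Lp p (1 + z) (ω p)‖ ^ 2) ≤
      (T ^ (-z₀)) ^ 2 * PP I := by
  have hS : ∀ p ∈ I, 1 ≤ p := fun p hp => (hI p hp).one_lt.le
  have hr : 0 < T ^ (-z₀) := Real.rpow_pos_of_pos hT _
  set q := (T ^ (-z₀)) ^ 2 with hq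
  have hq0 : 0 < q := by positivity
  have h1 : EE I (fun ω => RB I T z₀ ω ^ 2 * ∏ p ∈ I, ‖Lp p (1 + z) (ω p)‖ ^ 2) ≤
      EE I (fun ω => q⁻¹ / 2 * RB I T z₀ ω ^ 4 + q / 2 * ∏ p ∈ I, ‖Lp p (1 + z) (ω p)‖ ^ 4) := by
    refine EE_mono hS fun ω _ => ?_
    have e : ∏ p ∈ I, ‖Lp p (1 + z) (ω p)‖ ^ 4 = (∏ p ∈ I, ‖Lp p (1 + z) (ω p)‖ ^ 2) ^ 2 := by
      rw [← Finset.prod_pow]
      refine Finset.prod_congr rfl fun p _ => ?_
      ring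
    rw [e]
    set b := ∏ p ∈ I, ‖Lp p (1 + z) (ω p)‖ ^ 2
    set a := RB I T z₀ ω ^ 2 with ha
    have e2 : RB I T z₀ ω ^ 4 = a ^ 2 := by rw [ha]; ring
    rw [e2]
    have h0 : 0 ≤ (q⁻¹ * a - b) ^ 2 * q := by positivity
    have h3 : (q⁻¹ * a - b) ^ 2 * q = q⁻¹ * a ^ 2 - 2 * a * b + q * b ^ 2 := by
      field_simp
      ring
    nlinarith
  refine h1.trans ?_
  rw [EE_add, EE_mul_left, EE_mul_left]
  have h2 := EE_RB4 hI hI3 hc hT hz₀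
  have h3 := EE_L4 hI hI3 hc hz
  have h4 : (T ^ (-z₀)) ^ 4 = q ^ 2 := by rw [hq, ← pow_mul]
  rw [h4] at h2
  have h5 := prod_le_PP I (c := 11000) (by norm_num) (by norm_num)
  calc q⁻¹ / 2 * EE I (fun ω => RB I T z₀ ω ^ 4) +
        q / 2 * EE I (fun ω => ∏ p ∈ I, ‖Lp p (1 + z) (ω p)‖ ^ 4)
      ≤ q⁻¹ / 2 * (q ^ 2 * PP I) + q / 2 * PP I := by
        gcongr
        exact h2.trans (by gcongr)
    _ = q * PP I := by field_simp; ring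

/-- the deviation of the big block -/
theorem big_sub_one (hc : StCoef) {T z₀ : ℝ} (hT : 0 < T) (hz₀ : 0 ≤ z₀) :
    EE I (fun ω => (MB I T z₀ ω * ∏ p ∈ I, (Np p z₀ (ω p))⁻¹ - 1) ^ 2) ≤
      (√(PP I) * T ^ (-z₀)) ^ 2 := by
  have h1 : EE I (fun ω => (MB I T z₀ ω * ∏ p ∈ I, (Np p z₀ (ω p))⁻¹ - 1) ^ 2) =
      EE I (fun ω => RB I T z₀ ω ^ 2 * ∏ p ∈ I, ‖Lp p (1 + (z₀ : ℂ)) (ω p)‖ ^ 2) := by
    refine EE_congr fun ω hω => ?_
    have h2 := MB_add_RB hI T z₀ ω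
    have h3 : (∏ p ∈ I, Np p z₀ (ω p)) * ∏ p ∈ I, (Np p z₀ (ω p))⁻¹ = 1 := by
      rw [← Finset.prod_mul_distrib]
      refine Finset.prod_eq_one fun p hp => ?_
      exact mul_inv_cancel₀ (Np_pos hc (hI p hp) (hI3 p hp) hz₀ (hω.1 p)).ne'
    have h4 : ∏ p ∈ I, ‖Lp p (1 + (z₀ : ℂ)) (ω p)‖ ^ 2 = (∏ p ∈ I, (Np p z₀ (ω p))⁻¹) ^ 2 := by
      rw [← Finset.prod_pow]
      exact Finset.prod_congr rfl fun p hp => Lp_norm_sq (hI p hp).pos _ _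
    rw [h4]
    rw [← h2] at h3
    have h5 : MB I T z₀ ω * ∏ p ∈ I, (Np p z₀ (ω p))⁻¹ - 1 =
        -(RB I T z₀ ω * ∏ p ∈ I, (Np p z₀ (ω p))⁻¹) := by
      rw [add_mul] at h3
      linarith
    rw [h5]
    ring
  rw [h1]
  refine (EE_RBL hI hI3 hc hT hz₀ (z := (z₀ : ℂ)) (by simpa using hz₀)).trans ?_
  rw [mul_pow, Real.sq_sqrt (by linarith [one_le_PP I]), mul_comm]

end

/-- the sum of `1/p` over the big block -/
lemma sum_Ibx {L K : ℝ} (hL : 1 ≤ L) (hK : 1 ≤ K) :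
    ∑ p ∈ Ibx L K, (1 : ℝ) / p ≤ 8 * (1 + Real.log K) := by
  have hL0 : 0 < L := by linarith
  have hK0 : 0 < K := by linarith
  have hlK : 0 ≤ Real.log K := Real.log_nonneg hK
  rcases lt_or_ge (yk L 0) 2 with h | h
  · have : Ibx L K = ∅ := by
      rw [Finset.eq_empty_iff_forall_notMem]
      intro p hp
      have h3 : (3 : ℝ) ≤ p := by exact_mod_cast Ibx_three hp
      linarith [(mem_Ibx.1 hp).1]
    rw [this]; simp; linarith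
  · have hly : Real.log (yk L 0) = L / 8000 := by rw [log_yk]; simp
    have hlyK : Real.log (yk (L / K) 0) = L / K / 8000 := by rw [log_yk]; simp
    have hLK : L / K ≤ L := div_le_self hL0.le hK
    have hyy : yk (L / K) 0 ≤ yk L 0 := by
      rw [← Real.log_le_log_iff (yk_pos _ _) (yk_pos _ _), hly, hlyK]
      linarith
    have hy2 : 2 ≤ max 2 (yk (L / K) 0) := le_max_left _ _
    have hle : max 2 (yk (L / K) 0) ≤ yk L 0 := max_le h hyy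
    have h1 := sum_inv_range (S := Ibx L K) (fun p hp => Ibx_prime hp) hy2 hle (fun p hp => by
      refine max_le ?_ (mem_Ibx.1 hp).2.2.2.le
      exact_mod_cast (Ibx_prime hp).two_le) (fun p hp => (mem_Ibx.1 hp).1)
    have hl0 : 0 < Real.log (max 2 (yk (L / K) 0)) := Real.log_pos (by linarith)
    have hlog : Real.log (yk L 0) ≤ K * Real.log (max 2 (yk (L / K) 0)) := by
      have h2 : Real.log (yk (L / K) 0) ≤ Real.log (max 2 (yk (L / K) 0)) :=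
        Real.log_le_log (yk_pos _ _) (le_max_right _ _)
      rw [hlyK] at h2
      rw [hly]
      calc L / 8000 = K * (L / K / 8000) := by field_simp
        _ ≤ _ := by gcongr
    have h2 : Real.log (Real.log (yk L 0) / Real.log (max 2 (yk (L / K) 0))) ≤ Real.log K := by
      apply Real.log_le_log
      · have : 0 < Real.log (yk L 0) := by rw [hly]; positivity
        positivity
      · rw [div_le_iff₀ hl0]; exact hlog
    linarith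

lemma PP_Ibx {L K : ℝ} (hL : 1 ≤ L) (hK : 1 ≤ K) :
    PP (Ibx L K) ≤ Real.exp 24000000 * K ^ (24000000 : ℕ) := by
  have hK0 : 0 < K := by linarith
  refine (PP_le _).trans ?_
  have h := sum_Ibx hL hK
  have h1 : Real.exp 24000000 * K ^ (24000000 : ℕ) =
      Real.exp (24000000 + 24000000 * Real.log K) := by
    rw [Real.exp_add, ← Real.rpow_natCast, Real.rpow_def_of_pos hK0, mul_comm (Real.log K)]
    norm_num
  rw [h1]
  apply Real.exp_le_exp.2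
  linarith

theorem EE_Big1 (hc : StCoef) {L K : ℝ} (hL : 1 ≤ L) (hK : 1 ≤ K) :
    EE (Ibx L K) (fun ω => Mbx L K (P004.H628.ffx ω) ^ 2) ≤
      Real.exp 24000000 * K ^ (24000000 : ℕ) := by
  have hz : 0 ≤ K / L := by positivity
  simp only [Mbx_eq]
  exact (EE_MB2 (fun p hp => Ibx_prime hp) (fun p hp => Ibx_three hp) hc _ hz).trans
    (PP_Ibx hL hK)

theorem EE_Big2 (hc : StCoef) {L K : ℝ} (hL : 1 ≤ L) (hK : 1 ≤ K) {z : ℂ} (hz : 0 ≤ z.re) :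
    EE (Ibx L K) (fun ω => Mbx L K (P004.H628.ffx ω) ^ 2 *
      ∏ p ∈ Ibx L K, ‖Lp p (1 + z) (ω p)‖ ^ 2) ≤
      Real.exp 24000000 * K ^ (24000000 : ℕ) := by
  have hz0 : 0 ≤ K / L := by positivity
  simp only [Mbx_eq]
  exact (EE_MBL (fun p hp => Ibx_prime hp) (fun p hp => Ibx_three hp) hc _ hz0 hz).trans
    (PP_Ibx hL hK)

end P004G.H293.X663
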