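import Vale.Agent.P004.R2.H663.Big

/-!
# P004: mollification at the shift `K / L`, exponentially small error (module R3x)
-/

open Finset Real

namespace P004G.H293.X663

variable [Crv]

open P004.H293

open P004.H628 (yk_pos yk_anti)
open P004G.H628 (mem_Ik Ik_disj)

lemma Mkx_eq (L K : ℝ) (k : ℕ) (ω : ℕ → ℝ) :
    Mkx L K k (P004.H628.ffx ω) = MM (Ik (L / K) k) (⌈K⌉₊ * lk k) (K / L) ω := by
  unfold Mkx MM Akx
  rfl

/-- the primes of the small blocks -/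
noncomputable def US (L K : ℝ) : Finset ℕ := (range ⌈L⌉₊).biUnion (fun k => Ik (L / K) k)

/-- the remaining primes -/
noncomputable def RS (L K : ℝ) (N : ℕ) : Finset ℕ := QN N \ (US L K ∪ Ibx L K)

lemma yk_le {L K : ℝ} (hL : 0 < L) (hK : 1 ≤ K) (k : ℕ) : yk (L / K) k ≤ yk L k := by
  have h1 : L / K ≤ L := div_le_self hL.le hK
  rw [← Real.log_le_log_iff (yk_pos _ _) (yk_pos _ _), log_yk, log_yk]
  gcongr

lemma US_sub {L K : ℝ} (hL : 0 < L) (hK : 1 ≤ K) {N : ℕ} (hN : yk L 0 < N) : US L K ⊆ QN N := by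
  have hK0 : 0 < K := by linarith
  exact Ik_sub_QN (by positivity) ((yk_le hL hK 0).trans_lt hN) _

lemma Ibx_sub {L K : ℝ} {N : ℕ} (hN : yk L 0 < N) : Ibx L K ⊆ QN N := by
  intro p hp
  have h := mem_Ibx.1 hp
  rw [mem_QN]
  refine ⟨?_, h.2.1, h.2.2.1⟩
  exact_mod_cast h.1.trans_lt hN

lemma Ik_disj_Ibx {L K : ℝ} (hL : 0 < L) (hK : 0 < K) (k : ℕ) :
    Disjoint (Ik (L / K) k) (Ibx L K) := by
  rw [Finset.disjoint_left]
  intro p hp hq
  have h1 := (mem_Ik.1 hp).1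
  have h2 := (mem_Ibx.1 hq).2.2.2
  have h3 := yk_anti (L := L / K) (by positivity) (Nat.zero_le k)
  linarith

lemma RS_prime {L K : ℝ} {N p : ℕ} (hp : p ∈ RS L K N) : p.Prime ∧ 3 ≤ p := by
  have h := mem_QN.1 (mem_sdiff.1 hp).1
  exact ⟨h.2.1, three_le h.2.1 h.2.2⟩

/-- a remaining prime is large -/
lemma RS_large {L K : ℝ} (hL : 1 ≤ L) (hK : 1 ≤ K) (hKL : K ≤ L) {N p : ℕ}
    (hp : p ∈ RS L K N) : yk L 0 ≤ p := by
  have hL0 : 0 < L := by linarith
  have hK0 : 0 < K := by linarith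
  have hLK : 1 ≤ L / K := by rw [le_div_iff₀ hK0]; linarith
  have hQ := (mem_sdiff.1 hp).1
  have hno := (mem_sdiff.1 hp).2
  rw [mem_union, not_or] at hno
  obtain ⟨hU, hB⟩ := hno
  obtain ⟨-, hpp, hpb⟩ := mem_QN.1 hQ
  have hUs : (Finset.Ico 0 ⌈L / K⌉₊).biUnion (fun k => Ik (L / K) k) ⊆ US L K := by
    unfold US
    rw [Finset.range_eq_Ico]
    refine Finset.biUnion_subset_biUnion_of_subset_left _ (Finset.Ico_subset_Ico_right ?_)
    exact Nat.ceil_le_ceil (div_le_self hL0.le hK)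
  have h1 : yk (L / K) 0 ≤ p := rest_large (k₁ := 0) hLK
    (mem_sdiff.2 ⟨hQ, fun h => hU (hUs h)⟩)
  have h2 : yk (L / K) 1 < yk (L / K) 0 := by
    unfold yk
    apply Real.exp_lt_exp.2
    have h3 : Real.exp (-((1 : ℕ) : ℝ)) < Real.exp (-((0 : ℕ) : ℝ)) := by
      apply Real.exp_lt_exp.2; norm_num
    have h4 : 0 < L / K / 8000 := by positivity
    exact mul_lt_mul_of_pos_left h3 h4
  rcases eq_or_lt_of_le h1 with h | h
  · exfalso
    apply hU
    unfold US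
    rw [mem_biUnion]
    refine ⟨0, mem_range.2 (Nat.ceil_pos.2 hL0), mem_Ik.2 ⟨h.ge, hpp, hpb, ?_⟩⟩
    rw [← h]
    simpa using h2
  · by_contra hcon
    exact hB (mem_Ibx.2 ⟨(not_le.1 hcon).le, hpp, hpb, h⟩)

/-- the sum over large primes -/
lemma rest_Tx {L K : ℝ} (hL : 1 ≤ L) (hK : 1 ≤ K) (hKL : K ≤ L) {S : Finset ℕ}
    (hpr : ∀ p ∈ S, p.Prime) (hlarge : ∀ p ∈ S, yk L 0 ≤ p) :
    ∑ p ∈ S, (p : ℝ) ^ (-1 - 2 * (K / L)) ≤ 2640 * Real.exp (-K / 8000) := by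
  have hL0 : 0 < L := by linarith
  set y : ℝ := max 2 (yk L 0) with hy
  have hy2 : 2 ≤ y := le_max_left _ _
  have hly0 : 0 < Real.log y := Real.log_pos (by linarith)
  have hly : L / 8000 ≤ Real.log y := by
    have h1 : Real.log (yk L 0) = L / 8000 := by rw [log_yk]; simp
    rw [← h1]
    exact Real.log_le_log (yk_pos _ _) (le_max_right _ _)
  have h1 := sum_rpow_tail' hpr hy2 (σ := K / L) (by positivity)
    (by rw [div_le_one hL0]; exact hKL) (fun p hp => by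
      refine max_le ?_ (hlarge p hp)
      exact_mod_cast (hpr p hp).two_le)
  have h2 : ∑ p ∈ S, (p : ℝ) ^ (-1 - 2 * (K / L)) ≤
      ∑ p ∈ S, (p : ℝ) ^ (-1 - K / L) := by
    refine Finset.sum_le_sum fun p hp => ?_
    apply Real.rpow_le_rpow_of_exponent_le (by exact_mod_cast (hpr p hp).one_lt.le)
    have : 0 ≤ K / L := by positivity
    linarith
  refine h2.trans (h1.trans ?_)
  have hkl : K / 8000 ≤ K / L * Real.log y := by
    calc K / 8000 = K / L * (L / 8000) := by field_simp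
      _ ≤ _ := by gcongr
  have h3 : Real.exp (-(K / L) * Real.log y) ≤ Real.exp (-K / 8000) := by
    apply Real.exp_le_exp.2
    linarith
  have h4 : 1 + 1 / (K / L * Real.log y) ≤ 8001 := by
    have : 1 / (K / L * Real.log y) ≤ 8000 := by
      rw [div_le_iff₀ (by positivity)]
      linarith
    linarith
  have h5 : Real.log (1 + 1 / (K / L * Real.log y)) ≤ 9 := by
    have h6 : Real.log (1 + 1 / (K / L * Real.log y)) ≤ Real.log 8001 :=
      Real.log_le_log (by positivity) h4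
    have h7 : Real.log 8001 ≤ 9 := by
      rw [Real.log_le_iff_le_exp (by norm_num)]
      have : Real.exp 9 = Real.exp 1 ^ 9 := by rw [← Real.exp_nat_mul]; norm_num
      rw [this]
      have h8 : (2.718 : ℝ) ≤ Real.exp 1 := by linarith [Real.exp_one_gt_d9]
      calc (8001 : ℝ) ≤ 2.718 ^ 9 := by norm_num
        _ ≤ Real.exp 1 ^ 9 := by gcongr
    linarith
  have h6 : 0 ≤ Real.log (1 + 1 / (K / L * Real.log y)) := by
    apply Real.log_nonneg
    have : 0 ≤ 1 / (K / L * Real.log y) := by positivity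
    linarith
  calc 264 * Real.exp (-(K / L) * Real.log y) * (1 + Real.log (1 + 1 / (K / L * Real.log y)))
      ≤ 264 * Real.exp (-K / 8000) * (1 + 9) := by gcongr
    _ = _ := by ring

/-- the blocks together with the remaining primes -/
noncomputable def IZ (L K : ℝ) (N k : ℕ) : Finset ℕ :=
  if k < ⌈L⌉₊ then Ik (L / K) k else if k = ⌈L⌉₊ then Ibx L K else RS L K N

lemma IZ_biUnion {L K : ℝ} (hL : 0 < L) (hK : 1 ≤ K) {N : ℕ} (hN : yk L 0 < N) :
    (range (⌈L⌉₊ + 1 + 1)).biUnion (IZ L K N) = QN N := by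
  rw [Finset.range_add_one, Finset.biUnion_insert, Finset.range_add_one, Finset.biUnion_insert]
  have h0 : IZ L K N (⌈L⌉₊ + 1) = RS L K N := by
    unfold IZ
    rw [if_neg (by omega), if_neg (by omega)]
  have h1 : IZ L K N ⌈L⌉₊ = Ibx L K := by
    unfold IZ
    rw [if_neg (by omega), if_pos rfl]
  have h2 : (range ⌈L⌉₊).biUnion (IZ L K N) = US L K := by
    unfold US
    refine Finset.biUnion_congr rfl fun k hk => ?_
    unfold IZ
    rw [if_pos (mem_range.1 hk)]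
  rw [h0, h1, h2, RS, Finset.union_comm (Ibx L K)]
  exact Finset.sdiff_union_of_subset (Finset.union_subset (US_sub hL hK hN) (Ibx_sub hN))

lemma IZ_disj {L K : ℝ} (hL : 0 < L) (hK : 0 < K) {N : ℕ} :
    ((range (⌈L⌉₊ + 1 + 1) : Finset ℕ) : Set ℕ).PairwiseDisjoint (IZ L K N) := by
  have hmain : ∀ k l : ℕ, k < l → l < ⌈L⌉₊ + 1 + 1 → Disjoint (IZ L K N k) (IZ L K N l) := by
    intro k l hkl hl
    have hRS : ∀ p ∈ RS L K N, p ∉ US L K ∧ p ∉ Ibx L K := fun p hp => by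
      have := (mem_sdiff.1 hp).2
      rwa [mem_union, not_or] at this
    unfold IZ
    by_cases h1 : l < ⌈L⌉₊
    · rw [if_pos (by omega), if_pos h1]
      refine Finset.disjoint_left.2 fun p hp hq => ?_
      have := Ik_disj (L := L / K) (by positivity) hp hq
      omega
    · rw [if_neg h1]
      by_cases h2 : l = ⌈L⌉₊
      · rw [if_pos h2, if_pos (by omega)]
        exact Ik_disj_Ibx hL hK k
      · rw [if_neg h2]
        by_cases h3 : k < ⌈L⌉₊
        · rw [if_pos h3]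
          refine Finset.disjoint_left.2 fun p hp hq => (hRS p hq).1 ?_
          exact mem_biUnion.2 ⟨k, mem_range.2 h3, hp⟩
        · rw [if_neg h3, if_pos (by omega)]
          exact Finset.disjoint_left.2 fun p hp hq => (hRS p hq).2 hp
  intro k hk l hl hkl
  have hk' : k < ⌈L⌉₊ + 1 + 1 := by simpa using hk
  have hl' : l < ⌈L⌉₊ + 1 + 1 := by simpa using hl
  rcases lt_or_gt_of_ne hkl with h | h
  · exact hmain k l h hl'
  · exact (hmain l k h hk').symm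

/-- the deviations -/
noncomputable def YZ (L K : ℝ) (N k : ℕ) (ω : ℕ → ℝ) : ℝ :=
  if k < ⌈L⌉₊ then MM (Ik (L / K) k) (⌈K⌉₊ * lk k) (K / L) ω *
    ∏ p ∈ Ik (L / K) k, (Np p (K / L) (ω p))⁻¹ - 1
  else if k = ⌈L⌉₊ then MB (Ibx L K) (Real.exp (L / 4000)) (K / L) ω *
    ∏ p ∈ Ibx L K, (Np p (K / L) (ω p))⁻¹ - 1
  else ∏ p ∈ RS L K N, (Np p (K / L) (ω p))⁻¹ - 1

lemma YZ_depOn (L K : ℝ) (N k : ℕ) : DepOn (IZ L K N k) (YZ L K N k) := by
  intro ω ω' h
  unfold IZ at h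
  unfold YZ
  split_ifs with hk hk2
  · rw [if_pos hk] at h
    have h1 := MM_depOn (I := Ik (L / K) k) (fun p hp => Ik_prime hp) (⌈K⌉₊ * lk k) (K / L)
      ω ω' h
    simp only at h1
    rw [h1]
    congr 2
    exact Finset.prod_congr rfl fun p hp => by rw [h p hp]
  · rw [if_neg hk, if_pos hk2] at h
    have h1 := MB_depOn (I := Ibx L K) (fun p hp => Ibx_prime hp) (Real.exp (L / 4000)) (K / L)
      ω ω' h
    simp only at h1
    rw [h1]
    congr 2
    exact Finset.prod_congr rfl fun p hp => by rw [h p hp]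
  · rw [if_neg hk, if_neg hk2] at h
    congr 1
    exact Finset.prod_congr rfl fun p hp => by rw [h p hp]

/-- the expectation in `StR3x` -/
lemma R3x_main {L K : ℝ} {N : ℕ} (hL : 1 ≤ L) (hK : 1 ≤ K)
    (hN : yk L 0 < N) (s : ℕ → ℝ) (hs : ∀ k, 0 ≤ s k)
    (h1 : ∀ k < ⌈L⌉₊, EE (Ik (L / K) k) (fun ω => (MM (Ik (L / K) k) (⌈K⌉₊ * lk k) (K / L) ω *
      ∏ p ∈ Ik (L / K) k, (Np p (K / L) (ω p))⁻¹ - 1) ^ 2) ≤ s k ^ 2)
    (h2 : EE (Ibx L K) (fun ω => (MB (Ibx L K) (Real.exp (L / 4000)) (K / L) ω *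
      ∏ p ∈ Ibx L K, (Np p (K / L) (ω p))⁻¹ - 1) ^ 2) ≤ s ⌈L⌉₊ ^ 2)
    (h3 : EE (RS L K N) (fun ω => (∏ p ∈ RS L K N, (Np p (K / L) (ω p))⁻¹ - 1) ^ 2) ≤
      s (⌈L⌉₊ + 1) ^ 2) :
    EN N (fun X => ‖(Mfx L K 0 ⌈L⌉₊ X : ℂ) * LN N X (1 + K / L) - 1‖ ^ 2) ≤
      (∏ k ∈ range (⌈L⌉₊ + 1 + 1), (1 + s k) - 1) ^ 2 := by
  have hL0 : 0 < L := by linarith
  have hK0 : 0 < K := by linarith
  rw [P004.H628.EN_eq]
  have hIX1 : ∀ k ∈ range (⌈L⌉₊ + 1 + 1), ∀ p ∈ IZ L K N k, 1 ≤ p := by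
    intro k _ p hp
    unfold IZ at hp
    split_ifs at hp
    · exact (Ik_prime hp).one_lt.le
    · exact (Ibx_prime hp).one_lt.le
    · exact (RS_prime hp).1.one_lt.le
  have hEY : ∀ k ∈ range (⌈L⌉₊ + 1 + 1), EE (IZ L K N k) (fun ω => YZ L K N k ω ^ 2) ≤
      s k ^ 2 := by
    intro k hk
    by_cases hkL : k < ⌈L⌉₊
    · have := h1 k hkL
      simpa only [IZ, YZ, if_pos hkL] using this
    · by_cases hkL2 : k = ⌈L⌉₊
      · subst hkL2
        simpa only [IZ, YZ, if_neg hkL, if_true] using h2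
      · have hkeq : k = ⌈L⌉₊ + 1 := by have := mem_range.1 hk; omega
        subst hkeq
        simpa only [IZ, YZ, if_neg hkL, if_neg hkL2] using h3
  have hmain := P004.H128.prod_sub_one hIX1 (IZ_disj hL0 hK0) (YZ L K N)
    (fun k _ => YZ_depOn L K N k) s (fun k _ => hs k) hEY
  rw [IZ_biUnion hL0 hK hN] at hmain
  refine le_trans (le_of_eq ?_) hmain
  have hQ : QN N ⊆ range N := fun p hp => mem_range.2 (mem_QN.1 hp).1
  have hdep : DepOn (QN N) (fun ω => (∏ k ∈ range (⌈L⌉₊ + 1 + 1), (1 + YZ L K N k ω) - 1) ^ 2) := by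
    intro ω ω' h
    simp only
    congr 2
    refine Finset.prod_congr rfl fun k hk => ?_
    rw [YZ_depOn L K N k ω ω' fun p hp => h p ?_]
    rw [← IZ_biUnion hL0 hK hN]
    exact mem_biUnion.2 ⟨k, hk, hp⟩
  rw [← EE_of_depOn hQ hdep]
  congr 1
  funext ω
  have hs' : (1 : ℂ) + (K : ℂ) / (L : ℂ) = 1 + ((K / L : ℝ) : ℂ) := by push_cast; rfl
  have h3 : LN N (P004.H628.ffx ω) (1 + (K : ℂ) / (L : ℂ)) =
      ((∏ p ∈ QN N, (Np p (K / L) (ω p))⁻¹ : ℝ) : ℂ) := by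
    rw [LN_eq, hs']
    push_cast
    refine Finset.prod_congr rfl fun p hp => ?_
    rw [← Complex.ofReal_inv, ← Lp_real (mem_QN.1 hp).2.1.pos]
    push_cast
    rfl
  have hMf : Mfx L K 0 ⌈L⌉₊ (P004.H628.ffx ω) =
      MB (Ibx L K) (Real.exp (L / 4000)) (K / L) ω *
        ∏ k ∈ range ⌈L⌉₊, MM (Ik (L / K) k) (⌈K⌉₊ * lk k) (K / L) ω := by
    unfold Mfx
    rw [if_pos rfl, Mbx_eq, Finset.range_eq_Ico]
    congr 1
  rw [h3, hMf]
  have h4 : ((MB (Ibx L K) (Real.exp (L / 4000)) (K / L) ω *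
        ∏ k ∈ range ⌈L⌉₊, MM (Ik (L / K) k) (⌈K⌉₊ * lk k) (K / L) ω : ℝ) : ℂ) *
      ((∏ p ∈ QN N, (Np p (K / L) (ω p))⁻¹ : ℝ) : ℂ) - 1 =
      (((MB (Ibx L K) (Real.exp (L / 4000)) (K / L) ω *
        ∏ k ∈ range ⌈L⌉₊, MM (Ik (L / K) k) (⌈K⌉₊ * lk k) (K / L) ω) *
        (∏ p ∈ QN N, (Np p (K / L) (ω p))⁻¹) - 1 : ℝ) : ℂ) := by push_cast; rfl
  rw [h4, Complex.norm_real, Real.norm_eq_abs, sq_abs]
  congr 2
  have hU : US L K ∪ Ibx L K ⊆ QN N :=
    Finset.union_subset (US_sub hL0 hK hN) (Ibx_sub hN)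
  have hd : Disjoint (US L K) (Ibx L K) := by
    unfold US
    rw [Finset.disjoint_biUnion_left]
    exact fun k _ => Ik_disj_Ibx hL0 hK0 k
  have hsplit : ∏ p ∈ QN N, (Np p (K / L) (ω p))⁻¹ =
      (∏ p ∈ RS L K N, (Np p (K / L) (ω p))⁻¹) *
        ((∏ k ∈ range ⌈L⌉₊, ∏ p ∈ Ik (L / K) k, (Np p (K / L) (ω p))⁻¹) *
          ∏ p ∈ Ibx L K, (Np p (K / L) (ω p))⁻¹) := by
    rw [← Finset.prod_sdiff hU, Finset.prod_union hd]
    congr 2
    unfold US
    exact Finset.prod_biUnion (Ik_pairwise (L := L / K) (by positivity) _)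
  rw [hsplit, Finset.prod_range_succ, Finset.prod_range_succ]
  have e1 : ∏ k ∈ range ⌈L⌉₊, (1 + YZ L K N k ω) =
      (∏ k ∈ range ⌈L⌉₊, MM (Ik (L / K) k) (⌈K⌉₊ * lk k) (K / L) ω) *
        ∏ k ∈ range ⌈L⌉₊, ∏ p ∈ Ik (L / K) k, (Np p (K / L) (ω p))⁻¹ := by
    rw [← Finset.prod_mul_distrib]
    refine Finset.prod_congr rfl fun k hk => ?_
    unfold YZ
    rw [if_pos (mem_range.1 hk)]
    ring
  have e2 : 1 + YZ L K N ⌈L⌉₊ ω = MB (Ibx L K) (Real.exp (L / 4000)) (K / L) ω *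
      ∏ p ∈ Ibx L K, (Np p (K / L) (ω p))⁻¹ := by
    unfold YZ
    rw [if_neg (by omega), if_pos rfl]
    ring
  have e3 : 1 + YZ L K N (⌈L⌉₊ + 1) ω = ∏ p ∈ RS L K N, (Np p (K / L) (ω p))⁻¹ := by
    unfold YZ
    rw [if_neg (by omega), if_neg (by omega)]
    ring
  rw [e1, e2, e3]
  ring

/-- the truncation of the small blocks -/
lemma sum_small {K : ℝ} (hK : 1 ≤ K) (J : Finset ℕ) :
    ∑ k ∈ J, (1 / 3 : ℝ) ^ (⌈K⌉₊ * lk k) ≤ 3 * Real.exp (-K) := by
  have hK0 : 0 < K := by linarith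
  have hm : 1 ≤ ⌈K⌉₊ := Nat.one_le_ceil_iff.2 hK0
  have h1 : ∀ k, (1 / 3 : ℝ) ^ (⌈K⌉₊ * lk k) ≤ 3 * (1 / 3) ^ ⌈K⌉₊ * (1 / 3) ^ lk k := by
    intro k
    have hl : 1 ≤ lk k := by
      have h2 := lk_ge k
      have h3 : (1 : ℝ) ≤ lk k := by
        have : (0 : ℝ) ≤ k := Nat.cast_nonneg _
        linarith
      exact_mod_cast h3
    have h2 : ⌈K⌉₊ + lk k ≤ ⌈K⌉₊ * lk k + 1 := by nlinarith
    have h3 : (1 / 3 : ℝ) ^ (⌈K⌉₊ * lk k + 1) ≤ (1 / 3) ^ (⌈K⌉₊ + lk k) :=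
      pow_le_pow_of_le_one (by norm_num) (by norm_num) h2
    rw [pow_succ, pow_add] at h3
    linarith
  have h2 : (1 / 3 : ℝ) ^ ⌈K⌉₊ ≤ Real.exp (-K) := by
    have h3 : (1 / 3 : ℝ) ≤ Real.exp (-1) := by
      rw [Real.exp_neg, one_div]
      exact inv_anti₀ (Real.exp_pos _) (by linarith [Real.exp_one_lt_d9])
    calc (1 / 3 : ℝ) ^ ⌈K⌉₊ ≤ Real.exp (-1) ^ ⌈K⌉₊ := by gcongr
      _ = Real.exp (-(⌈K⌉₊ : ℝ)) := by rw [← Real.exp_nat_mul]; congr 1; ring
      _ ≤ Real.exp (-K) := by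
          apply Real.exp_le_exp.2
          linarith [Nat.le_ceil K]
  calc ∑ k ∈ J, (1 / 3 : ℝ) ^ (⌈K⌉₊ * lk k)
      ≤ ∑ k ∈ J, 3 * (1 / 3) ^ ⌈K⌉₊ * (1 / 3) ^ lk k := Finset.sum_le_sum fun k _ => h1 k
    _ = 3 * (1 / 3) ^ ⌈K⌉₊ * ∑ k ∈ J, (1 / 3 : ℝ) ^ lk k := by rw [Finset.mul_sum]
    _ ≤ 3 * Real.exp (-K) * 1 := by
        have h3 := sum_lk J
        have h4 : 0 ≤ ∑ k ∈ J, (1 / 3 : ℝ) ^ lk k := Finset.sum_nonneg fun k _ => by positivity
        gcongr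
    _ = _ := mul_one _

/-- a power of `K` against the exponential -/
lemma pow_mul_exp_le (A : ℕ) : ∃ C : ℝ, 0 < C ∧ ∀ K : ℝ, 0 ≤ K →
    K ^ A * Real.exp (-(K / 2000)) ≤ C * Real.exp (-(K / 4000)) := by
  refine ⟨(4000 * (A + 1)) ^ A, by positivity, fun K hK => ?_⟩
  have hA : (0 : ℝ) < 4000 * (A + 1) := by positivity
  have h1 : K ≤ 4000 * (A + 1) * Real.exp (K / (4000 * (A + 1))) := by
    have h2 := Real.add_one_le_exp (K / (4000 * (A + 1)))
    calc K = 4000 * (A + 1) * (K / (4000 * (A + 1))) := by field_simp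
      _ ≤ _ := by
        gcongr
        linarith
  have h2 : K ^ A ≤ (4000 * (A + 1)) ^ A * Real.exp (K / 4000) := by
    calc K ^ A ≤ (4000 * (A + 1) * Real.exp (K / (4000 * (A + 1)))) ^ A :=
          pow_le_pow_left₀ hK h1 A
      _ = (4000 * (A + 1)) ^ A * Real.exp (A * (K / (4000 * (A + 1)))) := by
          rw [mul_pow, ← Real.exp_nat_mul]
      _ ≤ _ := by
          gcongr
          rw [mul_div_assoc', div_le_div_iff₀ (by positivity) (by norm_num)]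
          have hA0 : (0 : ℝ) ≤ A := Nat.cast_nonneg _
          nlinarith
  calc K ^ A * Real.exp (-(K / 2000))
      ≤ (4000 * (A + 1)) ^ A * Real.exp (K / 4000) * Real.exp (-(K / 2000)) := by gcongr
    _ = (4000 * (A + 1)) ^ A * Real.exp (-(K / 4000)) := by
        rw [mul_assoc, ← Real.exp_add]
        congr 2
        ring

theorem pfR3x (hc : StCoef) : StR3x := by
  obtain ⟨C₁, hC₁, hpow⟩ := pow_mul_exp_le 24000000
  set E₀ : ℝ := Real.exp 24000000 with hE₀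
  have hE₀0 : 0 < E₀ := Real.exp_pos _
  set C₂ : ℝ := (3000 * Real.exp (3000 * 2640) + 2) * 2640 with hC₂
  have hC₂0 : 0 < C₂ := by positivity
  set C₃ : ℝ := √CP * 3 + √(E₀ * C₁) + √C₂ with hC₃
  have hCP := one_le_CP
  have hC₃0 : 0 < C₃ := by positivity
  refine ⟨max 1 ((C₃ * Real.exp C₃) ^ 2), 1 / 8000, le_max_left _ _, by norm_num,
    fun L K N hL hK hKL hN => ?_⟩
  have hL0 : 0 < L := by linarith
  have hK0 : 0 < K := by linarith
  have hz₀ : 0 ≤ K / L := by positivity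
  have hLK0 : 0 ≤ L / K := by positivity
  -- the sizes
  set s : ℕ → ℝ := fun k => if k < ⌈L⌉₊ then √CP * (1 / 3) ^ (⌈K⌉₊ * lk k)
    else if k = ⌈L⌉₊ then √(E₀ * C₁) * Real.exp (-(K / 8000))
    else √C₂ * Real.exp (-(K / 16000)) with hsdef
  have hs0 : ∀ k, 0 ≤ s k := by
    intro k
    simp only [hsdef]
    split_ifs <;> positivity
  have hT := rest_Tx hL hK hKL (S := RS L K N) (fun p hp => (RS_prime hp).1)
    (fun p hp => RS_large hL hK hKL hp)
  set T : ℝ := 2640 * Real.exp (-K / 8000) with hTdef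
  have hT0 : 0 ≤ T := by positivity
  have hT1 : T ≤ 2640 := by
    have : Real.exp (-K / 8000) ≤ 1 := by
      apply Real.exp_le_one_iff.2
      linarith
    linarith
  have hrest := rest_sub_one hc (S := RS L K N) (z₀ := K / L) (T := T)
    (fun p hp => RS_prime hp) hz₀ hT
  have hrest2 : Real.exp (3000 * T) - 1 + 2 * T ≤ C₂ * Real.exp (-K / 8000) := by
    have h1 : Real.exp (3000 * T) - 1 ≤ 3000 * T * Real.exp (3000 * T) := by
      have h2 := Real.add_one_le_exp (-(3000 * T))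
      have h3 : Real.exp (3000 * T) * Real.exp (-(3000 * T)) = 1 := by
        rw [← Real.exp_add]; simp
      nlinarith [Real.exp_pos (3000 * T)]
    have h2 : Real.exp (3000 * T) ≤ Real.exp (3000 * 2640) := by gcongr
    calc Real.exp (3000 * T) - 1 + 2 * T ≤ 3000 * T * Real.exp (3000 * 2640) + 2 * T := by
          have : 3000 * T * Real.exp (3000 * T) ≤ 3000 * T * Real.exp (3000 * 2640) := by gcongr
          linarith
      _ = C₂ * Real.exp (-K / 8000) := by rw [hC₂, hTdef]; ring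
  have hmain := R3x_main hL hK hN s hs0 (fun k hk => by
    have h1 := block_sub_one hc hLK0 k (z₀ := K / L) (η := 1) hz₀ one_pos le_rfl
      (fun p hp => Real.rpow_le_one_of_one_le_of_nonpos
        (by exact_mod_cast (Ik_prime hp).one_lt.le) (by linarith)) (⌈K⌉₊ * lk k)
    simpa only [hsdef, if_pos hk] using h1) (by
    have h1 := big_sub_one (I := Ibx L K) (fun p hp => Ibx_prime hp) (fun p hp => Ibx_three hp)
      hc (Real.exp_pos (L / 4000)) hz₀
    refine h1.trans ?_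
    simp only [hsdef, if_neg (lt_irrefl _), if_true]
    have e1 : Real.exp (L / 4000) ^ (-(K / L)) = Real.exp (-(K / 4000)) := by
      rw [← Real.exp_mul]
      congr 1
      field_simp
    rw [e1, mul_pow, mul_pow, Real.sq_sqrt (by linarith [one_le_PP (Ibx L K)]),
      Real.sq_sqrt (by positivity)]
    have e2 : Real.exp (-(K / 4000)) ^ 2 = Real.exp (-(K / 2000)) := by
      rw [← Real.exp_nat_mul]; congr 1; push_cast; ring
    have e3 : Real.exp (-(K / 8000)) ^ 2 = Real.exp (-(K / 4000)) := by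
      rw [← Real.exp_nat_mul]; congr 1; push_cast; ring
    rw [e2, e3]
    have h2 := PP_Ibx hL hK
    have h3 := hpow K hK0.le
    calc PP (Ibx L K) * Real.exp (-(K / 2000))
        ≤ E₀ * K ^ (24000000 : ℕ) * Real.exp (-(K / 2000)) := by gcongr
      _ = E₀ * (K ^ (24000000 : ℕ) * Real.exp (-(K / 2000))) := by ring
      _ ≤ E₀ * (C₁ * Real.exp (-(K / 4000))) := by gcongr
      _ = _ := by ring) (by
    refine hrest.trans (hrest2.trans (le_of_eq ?_))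
    simp only [hsdef]
    rw [if_neg (by omega), if_neg (by omega), mul_pow, Real.sq_sqrt hC₂0.le,
      ← Real.exp_nat_mul]
    congr 2
    push_cast
    ring)
  -- the total
  set e : ℝ := Real.exp (-(K / 16000)) with hedef
  have he0 : 0 < e := Real.exp_pos _
  have he1 : e ≤ 1 := Real.exp_le_one_iff.2 (by linarith)
  have hS : ∑ k ∈ range (⌈L⌉₊ + 1 + 1), s k ≤ C₃ * e := by
    rw [Finset.sum_range_succ, Finset.sum_range_succ]
    have h1 : ∑ k ∈ range ⌈L⌉₊, s k ≤ √CP * (3 * Real.exp (-K)) := by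
      have h2 : ∑ k ∈ range ⌈L⌉₊, s k = √CP * ∑ k ∈ range ⌈L⌉₊,
          (1 / 3 : ℝ) ^ (⌈K⌉₊ * lk k) := by
        rw [Finset.mul_sum]
        refine Finset.sum_congr rfl fun k hk => ?_
        simp only [hsdef, if_pos (mem_range.1 hk)]
      rw [h2]
      have := sum_small hK (range ⌈L⌉₊)
      gcongr
    have h2 : s ⌈L⌉₊ = √(E₀ * C₁) * Real.exp (-(K / 8000)) := by
      simp only [hsdef, if_neg (lt_irrefl _), if_true]
    have h3 : s (⌈L⌉₊ + 1) = √C₂ * e := by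
      simp only [hsdef]
      rw [if_neg (by omega), if_neg (by omega)]
    have h4 : Real.exp (-K) ≤ e := by
      rw [hedef]; apply Real.exp_le_exp.2; linarith
    have h5 : Real.exp (-(K / 8000)) ≤ e := by
      rw [hedef]; apply Real.exp_le_exp.2; linarith
    rw [h2, h3]
    calc ∑ k ∈ range ⌈L⌉₊, s k + √(E₀ * C₁) * Real.exp (-(K / 8000)) + √C₂ * e
        ≤ √CP * (3 * e) + √(E₀ * C₁) * e + √C₂ * e := by
          refine add_le_add (add_le_add (h1.trans ?_) ?_) le_rfl <;> gcongr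
      _ = _ := by rw [hC₃]; ring
  have hS0 : 0 ≤ ∑ k ∈ range (⌈L⌉₊ + 1 + 1), s k := Finset.sum_nonneg fun k _ => hs0 k
  have hprod : ∏ k ∈ range (⌈L⌉₊ + 1 + 1), (1 + s k) ≤
      Real.exp (∑ k ∈ range (⌈L⌉₊ + 1 + 1), s k) := by
    rw [Real.exp_sum]
    refine Finset.prod_le_prod (fun k _ => by linarith [hs0 k]) fun k _ => ?_
    linarith [Real.add_one_le_exp (s k)]
  have hprod1 : 1 ≤ ∏ k ∈ range (⌈L⌉₊ + 1 + 1), (1 + s k) :=
    one_le_prod_real fun k _ => by linarith [hs0 k]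
  set S := ∑ k ∈ range (⌈L⌉₊ + 1 + 1), s k with hSdef
  have hexp : Real.exp S - 1 ≤ S * Real.exp S := by
    have h2 := Real.add_one_le_exp (-S)
    have h3 : Real.exp S * Real.exp (-S) = 1 := by rw [← Real.exp_add]; simp
    nlinarith [Real.exp_pos S]
  have hSC : S ≤ C₃ := by nlinarith
  have hfin : ∏ k ∈ range (⌈L⌉₊ + 1 + 1), (1 + s k) - 1 ≤ (C₃ * Real.exp C₃) * e := by
    calc ∏ k ∈ range (⌈L⌉₊ + 1 + 1), (1 + s k) - 1 ≤ S * Real.exp S := by linarith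
      _ ≤ (C₃ * e) * Real.exp C₃ := by gcongr
      _ = _ := by ring
  refine hmain.trans ?_
  have he2 : e ^ 2 = Real.exp (-(1 / 8000) * K) := by
    rw [hedef, ← Real.exp_nat_mul]; congr 1; push_cast; ring
  calc (∏ k ∈ range (⌈L⌉₊ + 1 + 1), (1 + s k) - 1) ^ 2
      ≤ ((C₃ * Real.exp C₃) * e) ^ 2 := by
        refine pow_le_pow_left₀ (by linarith) hfin 2
    _ = (C₃ * Real.exp C₃) ^ 2 * Real.exp (-(1 / 8000) * K) := by rw [mul_pow, he2]
    _ ≤ _ := by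
        gcongr
        exact le_max_right _ _

end P004G.H293.X663
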